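import Vale.Agent.P207.Q.H413.Cal
import Mathlib.Topology.ContinuousMap.Weierstrass
import Mathlib.Algebra.Polynomial.Derivation
import Mathlib.Analysis.Calculus.MeanValue
import Mathlib.Analysis.Calculus.Deriv.Polynomial
import Mathlib.Analysis.SpecialFunctions.Log.Deriv
import Mathlib.Analysis.SpecialFunctions.Sqrt
import Mathlib.Analysis.SpecialFunctions.ExpDeriv

/-!
# P207: jets are closed under the composition with functions of class `C¹`

`A = C(P, ℝ)`, `P` compact. If `f` has the jet `d` and `F` is of class `C¹` on an open interval which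
contains the range of `f`, then `F ∘ f` has the jet `(F' ∘ f) d`: `F` is a limit of polynomials in
`C¹`, and `S` is a subalgebra. No further hypothesis on `S`.
-/

open Filter Topology Polynomial

noncomputable section

namespace Vale.Agent.P207.Q.H413

/-- primitives of polynomials -/
theorem exists_primitive (q : ℝ[X]) : ∃ p : ℝ[X], derivative p = q := by
  induction q using Polynomial.induction_on' with
  | add q q' h h' =>
    obtain ⟨p, hp⟩ := h
    obtain ⟨p', hp'⟩ := h'
    exact ⟨p + p', by rw [derivative_add, hp, hp']⟩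
  | monomial n a =>
    refine ⟨monomial (n + 1) (a / ((n : ℝ) + 1)), ?_⟩
    rw [derivative_monomial, Nat.add_sub_cancel]
    congr 1
    have : (n : ℝ) + 1 ≠ 0 := by positivity
    push_cast
    field_simp

/-- approximation in `C¹` by polynomials on an interval -/
theorem exists_poly {a b : ℝ} (hab : a ≤ b) {F F' : ℝ → ℝ}
    (hF : ∀ x ∈ Set.Icc a b, HasDerivWithinAt F (F' x) (Set.Icc a b) x)
    (hF' : ContinuousOn F' (Set.Icc a b)) {ε : ℝ} (hε : 0 < ε) :
    ∃ p : ℝ[X], (∀ x ∈ Set.Icc a b, |p.eval x - F x| ≤ ε * (b - a)) ∧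
      ∀ x ∈ Set.Icc a b, |(derivative p).eval x - F' x| ≤ ε := by
  obtain ⟨q, hq⟩ := exists_polynomial_near_of_continuousOn a b F' hF' ε hε
  obtain ⟨p₀, hp₀⟩ := exists_primitive q
  refine ⟨p₀ - C (p₀.eval a - F a), ?_, ?_⟩
  · intro x hx
    have h1 : ∀ y ∈ Set.Icc a b, HasDerivWithinAt (fun y => p₀.eval y - F y)
        (q.eval y - F' y) (Set.Icc a b) y := by
      intro y hy
      have h := (p₀.hasDerivAt y).hasDerivWithinAt (s := Set.Icc a b)
      rw [hp₀] at h
      exact h.sub (hF y hy)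
    have h2 := (convex_Icc a b).norm_image_sub_le_of_norm_hasDerivWithin_le h1
      (C := ε) (fun y hy => (hq y hy).le) (Set.left_mem_Icc.2 hab) hx
    rw [Real.norm_eq_abs, Real.norm_eq_abs, abs_of_nonneg (sub_nonneg.2 hx.1)] at h2
    have h3 : (p₀ - C (p₀.eval a - F a)).eval x - F x =
        p₀.eval x - F x - (p₀.eval a - F a) := by
      rw [eval_sub, eval_C]
      ring
    rw [h3]
    refine h2.trans (mul_le_mul_of_nonneg_left ?_ hε.le)
    linarith [hx.2]
  · intro x hx
    rw [derivative_sub, derivative_C, sub_zero, hp₀]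
    exact (hq x hx).le

variable {P : Type*} [TopologicalSpace P]

theorem aeval_coe (f : C(P, ℝ)) (p : ℝ[X]) (x : P) : (aeval f p) x = p.eval (f x) := by
  rw [Polynomial.aeval_continuousMap_apply]

variable [CompactSpace P]

/-- polynomials in a convergent sequence -/
theorem tendsto_aeval {a b : ℝ} (hab : a ≤ b) {u : ℕ → C(P, ℝ)} {f : C(P, ℝ)}
    (hu : Tendsto u atTop (𝓝 f)) (hf : ∀ x, f x ∈ Set.Ioo a b) {p : ℕ → ℝ[X]} {G : ℝ → ℝ}
    (hG : ContinuousOn G (Set.Icc a b)) {ε : ℕ → ℝ} (hε : Tendsto ε atTop (𝓝 0))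
    (hp : ∀ n, ∀ x ∈ Set.Icc a b, |(p n).eval x - G x| ≤ ε n) {g : C(P, ℝ)}
    (hg : ∀ x, g x = G (f x)) : Tendsto (fun n => aeval (u n) (p n)) atTop (𝓝 g) := by
  -- the range of `u n` is eventually in the interval
  have hab' : ∀ᶠ n in atTop, ∀ x, u n x ∈ Set.Icc a b := by
    have h1 : IsOpen {h : C(P, ℝ) | Set.MapsTo h Set.univ (Set.Ioo a b)} :=
      ContinuousMap.isOpen_setOfPred_mapsTo isCompact_univ isOpen_Ioo
    have h2 := hu.eventually (h1.mem_nhds (fun x _ => hf x))
    exact h2.mono fun n hn x => Set.Ioo_subset_Icc_self (hn (Set.mem_univ x))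
  -- the extension of `G`
  let G' : C(ℝ, ℝ) := ⟨Set.IccExtend hab ((Set.Icc a b).domRestrict G),
    (continuousOn_iff_continuous_domRestrict.1 hG).Icc_extend'⟩
  have hG' : ∀ x ∈ Set.Icc a b, G' x = G x := fun x hx =>
    (Set.IccExtend_of_mem hab ((Set.Icc a b).domRestrict G) hx).trans rfl
  have h1 : Tendsto (fun n => G'.comp (u n)) atTop (𝓝 (G'.comp f)) :=
    ((ContinuousMap.continuous_postcomp G').tendsto f).comp hu
  have h2 : G'.comp f = g := ContinuousMap.ext fun x => by
    rw [ContinuousMap.comp_apply, hG' _ (Set.Ioo_subset_Icc_self (hf x)), hg]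
  rw [h2] at h1
  have h3 : Tendsto (fun n => aeval (u n) (p n) - G'.comp (u n)) atTop (𝓝 0) := by
    rw [tendsto_zero_iff_norm_tendsto_zero]
    refine squeeze_zero' (Eventually.of_forall fun n => norm_nonneg _) ?_
      (hε.abs.trans_eq (by rw [abs_zero]))
    filter_upwards [hab'] with n hn
    rw [ContinuousMap.norm_le _ (abs_nonneg _)]
    intro x
    rw [ContinuousMap.sub_apply, ContinuousMap.comp_apply, aeval_coe, hG' _ (hn x),
      Real.norm_eq_abs]
    exact (hp n _ (hn x)).trans (le_abs_self _)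
  have h4 := h3.add h1
  simpa using h4

variable {I : C(P, ℝ) →L[ℝ] ℝ} {c : Cal I} {f : C(P, ℝ)} {d : Idx → C(P, ℝ)}

namespace Jet

/-- **Composition with a function of class `C¹`**, on a closed interval. -/
theorem comp_Icc (hf : Jet c f d) {a b : ℝ} (hab : ∀ x, f x ∈ Set.Ioo a b) (hab' : a ≤ b)
    {F F' : ℝ → ℝ} (hF : ∀ x ∈ Set.Icc a b, HasDerivWithinAt F (F' x) (Set.Icc a b) x)
    (hF' : ContinuousOn F' (Set.Icc a b)) {g g' : C(P, ℝ)} (hg : ∀ x, g x = F (f x))
    (hg' : ∀ x, g' x = F' (f x)) : Jet c g fun k => g' * d k := by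
  obtain ⟨u, hu, hu'⟩ := hf
  have hε : ∀ n : ℕ, (0 : ℝ) < 1 / ((n : ℝ) + 1) := fun n => by positivity
  choose p hp hp' using fun n : ℕ => exists_poly hab' hF hF' (hε n)
  have e0 : Tendsto (fun n : ℕ => (1 : ℝ) / ((n : ℝ) + 1)) atTop (𝓝 0) :=
    tendsto_one_div_add_atTop_nhds_zero_nat
  have e1 : Tendsto (fun n : ℕ => (1 : ℝ) / ((n : ℝ) + 1) * (b - a)) atTop (𝓝 0) := by
    simpa using e0.mul_const (b - a)
  have hFc : ContinuousOn F (Set.Icc a b) := fun x hx => (hF x hx).continuousWithinAt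
  refine ⟨fun n => aeval (u n) (p n), ?_, fun k => ?_⟩
  · have h := tendsto_aeval hab' hu hab hFc e1 hp hg
    refine h.congr fun n => ?_
    exact Polynomial.aeval_algHom_apply c.S.val (u n) (p n)
  · have h := (tendsto_aeval hab' hu hab hF' e0 hp' hg').mul (hu' k)
    refine h.congr fun n => ?_
    rw [Derivation.comp_aeval_eq (u n) (c.Y k) (p n)]
    show _ = ((aeval (u n) (derivative (p n)) * c.Y k (u n) : c.S) : C(P, ℝ))
    rw [Subalgebra.coe_mul]
    congr 1
    exact Polynomial.aeval_algHom_apply c.S.val (u n) (derivative (p n))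

/-- **Composition with a function of class `C¹`** on an open interval `U` (bounded or not). -/
theorem comp_of (hf : Jet c f d) {U : Set ℝ} (hU : IsOpen U) (hU' : U.OrdConnected)
    (hfU : ∀ x, f x ∈ U) {F F' : ℝ → ℝ} (hF : ∀ x ∈ U, HasDerivAt F (F' x) x)
    (hF' : ContinuousOn F' U) {g g' : C(P, ℝ)} (hg : ∀ x, g x = F (f x))
    (hg' : ∀ x, g' x = F' (f x)) : Jet c g fun k => g' * d k := by
  rcases isEmpty_or_nonempty P with hP | hP
  · have e : ∀ a b : C(P, ℝ), a = b := fun a b => ContinuousMap.ext fun x => (hP.false x).elim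
    exact hf.congr (e _ _) fun k => e _ _
  · obtain ⟨x₀, -, h0⟩ := isCompact_univ.exists_isMinOn Set.univ_nonempty f.continuous.continuousOn
    obtain ⟨x₁, -, h1⟩ := isCompact_univ.exists_isMaxOn Set.univ_nonempty f.continuous.continuousOn
    obtain ⟨ε₀, hε₀, hb₀⟩ := Metric.isOpen_iff.1 hU _ (hfU x₀)
    obtain ⟨ε₁, hε₁, hb₁⟩ := Metric.isOpen_iff.1 hU _ (hfU x₁)
    have ha : f x₀ - ε₀ / 2 ∈ U := hb₀ (by
      rw [Metric.mem_ball, Real.dist_eq, sub_sub_cancel_left, abs_neg, abs_of_pos (by linarith)]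
      linarith)
    have hb : f x₁ + ε₁ / 2 ∈ U := hb₁ (by
      rw [Metric.mem_ball, Real.dist_eq, add_sub_cancel_left, abs_of_pos (by linarith)]
      linarith)
    have hs : Set.Icc (f x₀ - ε₀ / 2) (f x₁ + ε₁ / 2) ⊆ U := hU'.out ha hb
    have hm : ∀ x, f x₀ ≤ f x := fun x => h0 (Set.mem_univ x)
    have hM : ∀ x, f x ≤ f x₁ := fun x => h1 (Set.mem_univ x)
    refine hf.comp_Icc (a := f x₀ - ε₀ / 2) (b := f x₁ + ε₁ / 2) (fun x => ⟨?_, ?_⟩) ?_
      (fun x hx => (hF x (hs hx)).hasDerivWithinAt) (hF'.mono hs) hg hg'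
    · linarith [hm x]
    · linarith [hM x]
    · linarith [hm x₁]

/-- the inverse of a positive function -/
theorem invPos (hf : Jet c f d) (h : ∀ x, 0 < f x) {g : C(P, ℝ)} (hg : ∀ x, g x = (f x)⁻¹) :
    Jet c g fun k => -(g * g) * d k :=
  hf.comp_of isOpen_Ioi Set.ordConnected_Ioi h (F := fun x => x⁻¹) (F' := fun x => -(x ^ 2)⁻¹)
    (fun x hx => hasDerivAt_inv (ne_of_gt hx))
    (ContinuousOn.neg (ContinuousOn.inv₀ (by fun_prop) fun _ hx => pow_ne_zero 2 (ne_of_gt hx)))
    hg fun x => by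
      show -(g x * g x) = _
      rw [hg, ← mul_inv, pow_two]

/-- the inverse of a function without zeros, the square of which is bounded below -/
theorem invNe (hf : Jet c f d) (h : ∀ x, f x ≠ 0) {g : C(P, ℝ)} (hg : ∀ x, g x = (f x)⁻¹) :
    Jet c g fun k => -(g * g) * d k := by
  have h1 : Jet c (g * g) fun k => -(g * g * (g * g)) * (f * d k + f * d k) :=
    (hf.mul hf).invPos (fun x => by
      show 0 < f x * f x
      exact mul_self_pos.2 (h x)) fun x => by
      show g x * g x = (f x * f x)⁻¹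
      rw [hg, mul_inv]
  refine (hf.mul h1).congr ?_ fun k => ?_
  · ext x
    show f x * (g x * g x) = g x
    rw [hg]
    have := h x
    field_simp
  · ext x
    show f x * (-(g x * g x * (g x * g x)) * (f x * d k x + f x * d k x)) + g x * g x * d k x =
      -(g x * g x) * d k x
    rw [hg]
    have := h x
    field_simp
    ring

/-- the logarithm of a positive function -/
theorem logPos (hf : Jet c f d) (h : ∀ x, 0 < f x) {g g' : C(P, ℝ)} (hg : ∀ x, g x = Real.log (f x))
    (hg' : ∀ x, g' x = (f x)⁻¹) : Jet c g fun k => g' * d k :=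
  hf.comp_of isOpen_Ioi Set.ordConnected_Ioi h (F := Real.log) (F' := fun x => x⁻¹)
    (fun x hx => Real.hasDerivAt_log (ne_of_gt hx))
    (ContinuousOn.inv₀ continuousOn_id fun _ hx => ne_of_gt hx) hg hg'

/-- the square root of a positive function -/
theorem sqrtPos (hf : Jet c f d) (h : ∀ x, 0 < f x) {g g' : C(P, ℝ)} (hg : ∀ x, g x = √(f x))
    (hg' : ∀ x, g' x = 1 / (2 * √(f x))) : Jet c g fun k => g' * d k :=
  hf.comp_of isOpen_Ioi Set.ordConnected_Ioi h (F := Real.sqrt) (F' := fun x => 1 / (2 * √x))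
    (fun x hx => Real.hasDerivAt_sqrt (ne_of_gt hx))
    (ContinuousOn.div continuousOn_const (by fun_prop) fun x hx => by
      have : 0 < √x := Real.sqrt_pos.2 hx
      positivity) hg hg'

/-- the exponential -/
theorem expAll (hf : Jet c f d) {g : C(P, ℝ)} (hg : ∀ x, g x = Real.exp (f x)) :
    Jet c g fun k => g * d k :=
  hf.comp_of isOpen_univ Set.ordConnected_univ (fun _ => Set.mem_univ _) (F := Real.exp)
    (F' := Real.exp) (fun x _ => Real.hasDerivAt_exp x) Real.continuous_exp.continuousOn hg hg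

/-- the quotient -/
theorem divNe (hf : Jet c f d) {f₂ : C(P, ℝ)} {d₂ : Idx → C(P, ℝ)} (hf₂ : Jet c f₂ d₂)
    (h : ∀ x, f₂ x ≠ 0) {g₂ : C(P, ℝ)} (hg : ∀ x, g₂ x = (f₂ x)⁻¹) :
    Jet c (f * g₂) fun k => (d k - f * g₂ * d₂ k) * g₂ :=
  (hf.mul (hf₂.invNe h hg)).congr rfl fun k => by ring

/-- the product with a constant -/
theorem smulR (hf : Jet c f d) (r : ℝ) : Jet c (r • f) fun k => r • d k := by
  obtain ⟨u, hu, hu'⟩ := hf
  refine ⟨fun n => r • u n, ?_, fun k => ?_⟩
  · exact hu.const_smul r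
  · have h := (hu' k).const_smul r
    refine h.congr fun n => ?_
    have e : c.Y k (r • u n) = r • c.Y k (u n) := (c.Y k).map_smul r (u n)
    show r • ((c.Y k (u n) : c.S) : C(P, ℝ)) = ((c.Y k (r • u n) : c.S) : C(P, ℝ))
    rw [e]
    rfl

theorem negR (hf : Jet c f d) : Jet c (-f) fun k => -d k :=
  (hf.smulR (-1)).congr (by rw [neg_smul, one_smul]) fun k => by rw [neg_smul, one_smul]

/-- constants -/
theorem constR (r : ℝ) : Jet c (algebraMap ℝ C(P, ℝ) r) fun _ => 0 := by
  refine ⟨fun _ => algebraMap ℝ c.S r, tendsto_const_nhds, fun k => ?_⟩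
  have e : c.Y k (algebraMap ℝ c.S r) = 0 := (c.Y k).map_algebraMap r
  show Tendsto (fun _ : ℕ => ((c.Y k (algebraMap ℝ c.S r) : c.S) : C(P, ℝ))) atTop (𝓝 0)
  rw [e]
  exact tendsto_const_nhds

end Jet

end Vale.Agent.P207.Q.H413
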