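import Vale.Agent.P207.Q.H413.Inst
import Vale.Agent.P207.Q.H222.Func

/-!
# P207: the stable side, and the weak derivatives of the transfer function, algebraic part

`Flip`: the involution `σ : (e₀, e₁, e₂) ↦ (- e₀, e₁, e₂)`.  `S = U + U ∘ σ`, `L = log det S`.
If `J` and `J'` are the functionals of `ψ` and of `- ψ ∘ σ - L` and both have the unstable
derivatives `D_i = - p_i`, then `J` has all weak derivatives.
-/

open MeasureTheory Filter Topology

noncomputable section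

namespace Vale.Agent.P207.Q.H222

open Vale.Agent.P207.Q.H413 Vale.Agent.P207.Q.H892

variable {P : Type*} [TopologicalSpace P] [CompactSpace P] [MeasurableSpace P] [BorelSpace P]
  {m : Measure P} [IsFiniteMeasure m]

/-- the sign of the fields under the flip -/
def sgn : Idx → ℝ
  | .X => -1
  | .H _ => 1
  | .V _ => -1
  | .R => 1

/-- The flip. -/
structure Flip (c : Cal (intL m)) where
  σ : C(P, P)
  inv : ∀ x, σ (σ x) = x
  mp : MeasurePreserving σ m m
  pull : c.S → c.S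
  pull_apply : ∀ f, ((pull f : c.S) : C(P, ℝ)) = (f : C(P, ℝ)).comp σ
  Y_pull : ∀ k f, ((c.Y k (pull f) : c.S) : C(P, ℝ)) =
    sgn k • ((c.Y k f : c.S) : C(P, ℝ)).comp σ

variable {c : Cal (intL m)}

/-- composition with the flip -/
def Flip.o (s : Flip c) (f : C(P, ℝ)) : C(P, ℝ) := f.comp s.σ

namespace Flip

variable (s : Flip c)

@[simp] theorem o_apply (f : C(P, ℝ)) (x : P) : s.o f x = f (s.σ x) := rfl

@[simp] theorem o_o (f : C(P, ℝ)) : s.o (s.o f) = f :=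
  ContinuousMap.ext fun x => by simp [s.inv]

theorem o_add (f g : C(P, ℝ)) : s.o (f + g) = s.o f + s.o g := rfl
theorem o_sub (f g : C(P, ℝ)) : s.o (f - g) = s.o f - s.o g := rfl
theorem o_neg (f : C(P, ℝ)) : s.o (- f) = - s.o f := rfl
theorem o_mul (f g : C(P, ℝ)) : s.o (f * g) = s.o f * s.o g := rfl
theorem o_smul (r : ℝ) (f : C(P, ℝ)) : s.o (r • f) = r • s.o f := rfl

theorem cont_o : Continuous s.o := ContinuousMap.continuous_precomp s.σ

theorem int_o (f : C(P, ℝ)) : intL m (s.o f) = intL m f := by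
  rw [intL_apply, intL_apply]
  have h := s.mp.integral_comp' (f := MeasurableEquiv.mk ⟨s.σ, s.σ, s.inv, s.inv⟩
    s.σ.continuous.measurable s.σ.continuous.measurable) (g := fun x => f x)
  exact h

/-- jets and the flip -/
theorem jet {f : C(P, ℝ)} {d : Idx → C(P, ℝ)} (hf : Jet c f d) :
    Jet c (s.o f) (fun k => sgn k • s.o (d k)) := by
  obtain ⟨u, hu, hu'⟩ := hf
  refine ⟨fun n => s.pull (u n), ?_, fun k => ?_⟩
  · have h := (s.cont_o.tendsto _).comp hu
    refine h.congr fun n => ?_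
    exact (s.pull_apply (u n)).symm
  · have h := ((s.cont_o.tendsto _).comp (hu' k)).const_smul (sgn k)
    refine h.congr fun n => ?_
    exact (s.Y_pull k (u n)).symm

end Flip

variable {C : Curv c} (D : UData c C) (s : Flip c)

/-- `S = U + U ∘ σ` -/
def Sm (i j : Fin 2) : C(P, ℝ) := D.U i j + s.o (D.U i j)

/-- the derivatives of `S` -/
def dSm (i j : Fin 2) (k : Idx) : C(P, ℝ) := D.dU i j k + sgn k • s.o (D.dU i j k)

theorem jSm (i j : Fin 2) : Jet c (Sm D s i j) (dSm D s i j) :=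
  (D.jU i j).add (s.jet (D.jU i j))

/-- `det S` -/
def dt : C(P, ℝ) := Sm D s 0 0 * Sm D s 1 1 - Sm D s 0 1 * Sm D s 0 1

/-- the derivatives of `det S` -/
def ddt (k : Idx) : C(P, ℝ) := (Sm D s 0 0 * dSm D s 1 1 k + Sm D s 1 1 * dSm D s 0 0 k) -
  (Sm D s 0 1 * dSm D s 0 1 k + Sm D s 0 1 * dSm D s 0 1 k)

theorem jdt : Jet c (dt D s) (ddt D s) :=
  ((jSm D s 0 0).mul (jSm D s 1 1)).sub ((jSm D s 0 1).mul (jSm D s 0 1))

/-- `t = tr U` -/
def tr : C(P, ℝ) := D.U 0 0 + D.U 1 1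

/-- `p_i = Σ_j V_j U_ij` -/
def pp (i : Fin 2) : C(P, ℝ) := ∑ j, D.dU i j (.V j)

theorem ddt_R : ddt D s .R = 0 := by
  have h2 : ∀ y, (2 : C(P, ℝ)) y = 2 := fun _ => rfl
  have h00 : dSm D s 0 0 .R = 2 * Sm D s 0 1 := by
    simp only [dSm, sgn, one_smul, D.R00, Sm]
    ext x; simp [h2]; ring
  have h01 : dSm D s 0 1 .R = Sm D s 1 1 - Sm D s 0 0 := by
    simp only [dSm, sgn, one_smul, D.R01, Sm]
    ext x; simp; ring
  have h11 : dSm D s 1 1 .R = - 2 * Sm D s 0 1 := by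
    simp only [dSm, sgn, one_smul, D.R11, Sm]
    ext x; simp [h2]; ring
  rw [ddt, h00, h01, h11]
  ring

theorem ddt_X (hK : ∀ i j, s.o (C.K i j) = C.K i j) :
    ddt D s .X = dt D s * (s.o (tr D) - tr D) := by
  ext x
  have hk : ∀ i j, C.K i j (s.σ x) = C.K i j x := fun i j =>
    DFunLike.congr_fun (hK i j) x
  have e : ∀ i j, (dSm D s i j .X) x = (∑ k, D.U i k (s.σ x) * D.U k j (s.σ x)) -
      ∑ k, D.U i k x * D.U k j x := by
    intro i j
    have h1 := DFunLike.congr_fun (D.ric i j) x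
    have h2 := DFunLike.congr_fun (D.ric i j) (s.σ x)
    simp only [dSm, sgn, ContinuousMap.add_apply, ContinuousMap.smul_apply, Flip.o_apply,
      smul_eq_mul, h1, h2, ContinuousMap.sub_apply, hk, Fin.sum_univ_two,
      ContinuousMap.mul_apply]
    ring
  have h10 : ∀ y, D.U 1 0 y = D.U 0 1 y := fun y => DFunLike.congr_fun D.symU y
  simp only [ddt, ContinuousMap.sub_apply, ContinuousMap.add_apply, ContinuousMap.mul_apply, e,
    dt, Sm, tr, Flip.o_apply, Fin.sum_univ_two, h10]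
  ring

/-- positivity of `det S` -/
theorem dt_pos {ε : ℝ} (hε : 0 < ε)
    (hpos : ∀ x a b, ε * (a ^ 2 + b ^ 2) ≤ D.U 0 0 x * a ^ 2 + 2 * D.U 0 1 x * (a * b) +
      D.U 1 1 x * b ^ 2) (x : P) : 0 < dt D s x := by
  have hS : ∀ a b, 2 * ε * (a ^ 2 + b ^ 2) ≤ Sm D s 0 0 x * a ^ 2 + 2 * Sm D s 0 1 x * (a * b) +
      Sm D s 1 1 x * b ^ 2 := fun a b => by
    have h1 := hpos x a b
    have h2 := hpos (s.σ x) a b
    simp only [Sm, ContinuousMap.add_apply, Flip.o_apply]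
    nlinarith
  show 0 < Sm D s 0 0 x * Sm D s 1 1 x - Sm D s 0 1 x * Sm D s 0 1 x
  set a := Sm D s 0 0 x
  set b := Sm D s 0 1 x
  set d := Sm D s 1 1 x
  have ha : 2 * ε ≤ a := by have := hS 1 0; linarith
  have h1 := hS (-b) a
  have h2 : a * (2 * ε * a) ≤ a * (a * d - b * b) := by nlinarith [mul_nonneg hε.le (sq_nonneg b)]
  have ha0 : 0 < a := by linarith
  have h3 := le_of_mul_le_mul_left h2 ha0
  have h4 : 0 < 2 * ε * a := by positivity
  linarith

/-- `1 / det S` -/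
def iv (h : ∀ x, 0 < dt D s x) : C(P, ℝ) :=
  ⟨fun x => (dt D s x)⁻¹, (dt D s).continuous.inv₀ fun x => (h x).ne'⟩

/-- `log det S` -/
def lg (h : ∀ x, 0 < dt D s x) : C(P, ℝ) :=
  ⟨fun x => Real.log (dt D s x), (dt D s).continuous.log fun x => (h x).ne'⟩

variable (h : ∀ x, 0 < dt D s x)

theorem jiv : Jet c (iv D s h) (fun k => - (iv D s h * iv D s h) * ddt D s k) :=
  (jdt D s).invPos h fun _ => rfl

/-- the derivatives of `log det S` -/
def dlg (k : Idx) : C(P, ℝ) := iv D s h * ddt D s k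

theorem jlg : Jet c (lg D s h) (dlg D s h) :=
  (jdt D s).logPos h (fun _ => rfl) fun _ => rfl

theorem iv_mul : iv D s h * dt D s = 1 :=
  ContinuousMap.ext fun x => inv_mul_cancel₀ (h x).ne'

theorem dlg_R : dlg D s h .R = 0 := by
  rw [dlg, ddt_R, mul_zero]

theorem dlg_X (hK : ∀ i j, s.o (C.K i j) = C.K i j) : dlg D s h .X = s.o (tr D) - tr D := by
  rw [dlg, ddt_X D s hK, ← mul_assoc, iv_mul, one_mul]

/-- `T = S⁻¹` -/
def Tm : Fin 2 → Fin 2 → C(P, ℝ)
  | 0, 0 => Sm D s 1 1 * iv D s h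
  | 0, 1 => - (Sm D s 0 1 * iv D s h)
  | 1, 0 => - (Sm D s 0 1 * iv D s h)
  | 1, 1 => Sm D s 0 0 * iv D s h

/-- the derivatives of `T` -/
def dTm : Fin 2 → Fin 2 → Idx → C(P, ℝ)
  | 0, 0, k => Sm D s 1 1 * (- (iv D s h * iv D s h) * ddt D s k) + iv D s h * dSm D s 1 1 k
  | 0, 1, k => - (Sm D s 0 1 * (- (iv D s h * iv D s h) * ddt D s k) + iv D s h * dSm D s 0 1 k)
  | 1, 0, k => - (Sm D s 0 1 * (- (iv D s h * iv D s h) * ddt D s k) + iv D s h * dSm D s 0 1 k)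
  | 1, 1, k => Sm D s 0 0 * (- (iv D s h * iv D s h) * ddt D s k) + iv D s h * dSm D s 0 0 k

theorem jTm (i j : Fin 2) : Jet c (Tm D s h i j) (dTm D s h i j) := by
  have h0 := (jSm D s 0 0).mul (jiv D s h)
  have h1 := ((jSm D s 0 1).mul (jiv D s h)).negR
  have h2 := (jSm D s 1 1).mul (jiv D s h)
  fin_cases i <;> fin_cases j
  · exact h2
  · exact h1
  · exact h1
  · exact h0

/-- the algebra of `T = S⁻¹`: `Σ_i (Σ_j S_ij V_j (T_ki f) + (Σ_j V_j S_ij) T_ki f) = V_k f` -/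
theorem key (k : Fin 2) (f : C(P, ℝ)) (d : Idx → C(P, ℝ)) :
    ∑ i, (∑ j, Sm D s i j * (Tm D s h k i * d (.V j) + f * dTm D s h k i (.V j)) +
      (∑ j, dSm D s i j (.V j)) * (Tm D s h k i * f)) = d (.V k) := by
  have hi := iv_mul D s h
  have s10 : Sm D s 1 0 = Sm D s 0 1 := by simp only [Sm, D.symU]
  have d10 : ∀ k, dSm D s 1 0 k = dSm D s 0 1 k := fun k => by simp only [dSm, D.symd]
  simp only [dt] at hi
  fin_cases k
  · simp only [Fin.sum_univ_two, Fin.zero_eta, Tm, dTm, s10, d10, ddt]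
    set a := Sm D s 0 0
    set b := Sm D s 0 1
    set e := Sm D s 1 1
    set q := iv D s h
    linear_combination (d (.V 0) - f * q * (a * dSm D s 1 1 (.V 0) + e * dSm D s 0 0 (.V 0) -
      (b * dSm D s 0 1 (.V 0) + b * dSm D s 0 1 (.V 0)))) * hi
  · simp only [Fin.sum_univ_two, Fin.mk_one, Tm, dTm, s10, d10, ddt]
    set a := Sm D s 0 0
    set b := Sm D s 0 1
    set e := Sm D s 1 1
    set q := iv D s h
    linear_combination (d (.V 1) - f * q * (a * dSm D s 1 1 (.V 1) + e * dSm D s 0 0 (.V 1) -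
      (b * dSm D s 0 1 (.V 1) + b * dSm D s 0 1 (.V 1)))) * hi

end Vale.Agent.P207.Q.H222
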