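import Vale.Agent.P207.Q.H222.WD3a

/-!
# P207: the weak derivatives of the transfer function from the two unstable identities
-/

open MeasureTheory Filter Topology

noncomputable section

namespace Vale.Agent.P207.Q.H222

open Vale.Agent.P207.Q.H413 Vale.Agent.P207.Q.H892

variable {P : Type*} [TopologicalSpace P] [CompactSpace P] [MeasurableSpace P] [BorelSpace P]
  {m : Measure P} [IsFiniteMeasure m] {c : Cal (intL m)} {C : Curv c} (D : UData c C)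

/-- The functional `J` (of `ψ`) has the unstable derivatives `- p_i`:
`J (D_i χ + p_i χ) = ∫ p_i χ`. -/
def UW (J : C(P, ℝ) →L[ℝ] ℝ) : Prop :=
  ∀ (χ : C(P, ℝ)) (d : Idx → C(P, ℝ)), Jet c χ d → ∀ i,
    J (d (.H i) + ∑ j, D.U i j * d (.V j) + pp D i * χ) = intL m (pp D i * χ)

variable (s : Flip c) {J J' : C(P, ℝ) →L[ℝ] ℝ}

/-- `∫ L (D_i χ + p_i χ) = - ∫ χ D_i L` -/
theorem int_L {L χ : C(P, ℝ)} {dL d : Idx → C(P, ℝ)} (hL : Jet c L dL) (hχ : Jet c χ d)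
    (i : Fin 2) : intL m (L * (d (.H i) + ∑ j, D.U i j * d (.V j) + pp D i * χ)) =
      - intL m (χ * (dL (.H i) + ∑ j, D.U i j * dL (.V j))) := by
  have h0 := hL.int_mul hχ (.H i)
  have h1 := fun j => (hL.mul (D.jU i j)).int_mul hχ (.V j)
  have h10 := h1 0
  have h11 := h1 1
  simp only [Fin.sum_univ_two, pp] at *
  have e1 : L * (d (.H i) + (D.U i 0 * d (.V 0) + D.U i 1 * d (.V 1)) +
      (D.dU i 0 (.V 0) + D.dU i 1 (.V 1)) * χ) =
      L * d (.H i) + L * D.U i 0 * d (.V 0) + L * D.U i 1 * d (.V 1) +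
        χ * (L * D.dU i 0 (.V 0)) + χ * (L * D.dU i 1 (.V 1)) := by ring
  have e2 : χ * (dL (.H i) + (D.U i 0 * dL (.V 0) + D.U i 1 * dL (.V 1))) =
      χ * dL (.H i) + χ * (L * D.dU i 0 (.V 0) + D.U i 0 * dL (.V 0)) +
        χ * (L * D.dU i 1 (.V 1) + D.U i 1 * dL (.V 1)) -
        χ * (L * D.dU i 0 (.V 0)) - χ * (L * D.dU i 1 (.V 1)) := by ring
  rw [e1, e2]
  simp only [map_add, map_sub]
  simp only [map_add, mul_add] at h10 h11
  simp only [map_add, mul_add]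
  linarith

/-- the stable identity -/
theorem stable {L : C(P, ℝ)} {dL : Idx → C(P, ℝ)} (hL : Jet c L dL) (hJ' : UW D J')
    (hJJ : ∀ f, J' f = - J (s.o f) - intL m (L * f)) {χ : C(P, ℝ)} {d : Idx → C(P, ℝ)}
    (hχ : Jet c χ d) (i : Fin 2) :
    J (d (.H i) - ∑ j, s.o (D.U i j) * d (.V j) + s.o (pp D i) * χ) =
      intL m (s.o (dL (.H i) + ∑ j, D.U i j * dL (.V j)) * χ) - intL m (s.o (pp D i) * χ) := by
  have hχ' := s.jet hχ
  have h1 := hJ' _ _ hχ' i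
  rw [hJJ, int_L D hL hχ' i] at h1
  have e1 : s.o (sgn (.H i) • s.o (d (.H i)) + ∑ j, D.U i j * (sgn (.V j) • s.o (d (.V j))) +
      pp D i * s.o χ) = d (.H i) - ∑ j, s.o (D.U i j) * d (.V j) + s.o (pp D i) * χ := by
    ext x
    simp only [sgn, Fin.sum_univ_two, Flip.o_apply, ContinuousMap.add_apply,
      ContinuousMap.sub_apply, ContinuousMap.mul_apply, ContinuousMap.smul_apply, s.inv,
      smul_eq_mul]
    ring
  rw [e1] at h1
  have e2 : intL m (s.o χ * (dL (.H i) + ∑ j, D.U i j * dL (.V j))) =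
      intL m (s.o (dL (.H i) + ∑ j, D.U i j * dL (.V j)) * χ) := by
    rw [← s.int_o (s.o χ * _), s.o_mul, s.o_o, mul_comm]
  have e3 : intL m (pp D i * s.o χ) = intL m (s.o (pp D i) * χ) := by
    rw [← s.int_o (pp D i * s.o χ), s.o_mul, s.o_o]
  rw [e2, e3] at h1
  linarith

/-- `g_i = p_i + p_i ∘ σ - (D_i L) ∘ σ` -/
def gg (dL : Idx → C(P, ℝ)) (i : Fin 2) : C(P, ℝ) :=
  pp D i + s.o (pp D i) - s.o (dL (.H i) + ∑ j, D.U i j * dL (.V j))

/-- the difference of the two identities -/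
theorem diff {L : C(P, ℝ)} {dL : Idx → C(P, ℝ)} (hL : Jet c L dL) (hJ : UW D J)
    (hJ' : UW D J') (hJJ : ∀ f, J' f = - J (s.o f) - intL m (L * f)) {χ : C(P, ℝ)}
    {d : Idx → C(P, ℝ)} (hχ : Jet c χ d) (i : Fin 2) :
    J (∑ j, Sm D s i j * d (.V j) + (∑ j, dSm D s i j (.V j)) * χ) =
      intL m (gg D s dL i * χ) := by
  have h1 := hJ _ _ hχ i
  have h2 := stable D s hL hJ' hJJ hχ i
  have e : ∑ j, Sm D s i j * d (.V j) + (∑ j, dSm D s i j (.V j)) * χ =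
      (d (.H i) + ∑ j, D.U i j * d (.V j) + pp D i * χ) -
      (d (.H i) - ∑ j, s.o (D.U i j) * d (.V j) + s.o (pp D i) * χ) := by
    ext x
    simp only [Sm, dSm, sgn, pp, Fin.sum_univ_two, Flip.o_apply, ContinuousMap.add_apply,
      ContinuousMap.sub_apply, ContinuousMap.mul_apply, ContinuousMap.smul_apply, smul_eq_mul]
    ring
  rw [e, map_sub, h1, h2, gg, sub_mul, add_mul, map_sub, map_add]
  ring

/-- the vertical derivatives -/
def av (h : ∀ x, 0 < dt D s x) (dL : Idx → C(P, ℝ)) (k : Fin 2) : C(P, ℝ) :=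
  - ∑ i, Tm D s h k i * gg D s dL i

theorem weak_V (h : ∀ x, 0 < dt D s x) {L : C(P, ℝ)} {dL : Idx → C(P, ℝ)} (hL : Jet c L dL)
    (hJ : UW D J) (hJ' : UW D J') (hJJ : ∀ f, J' f = - J (s.o f) - intL m (L * f))
    {χ : C(P, ℝ)} {d : Idx → C(P, ℝ)} (hχ : Jet c χ d) (k : Fin 2) :
    J (d (.V k)) = - intL m (av D s h dL k * χ) := by
  rw [← key D s h k χ d, map_sum, av, neg_mul, map_neg, neg_neg, Finset.sum_mul, map_sum]
  refine Finset.sum_congr rfl fun i _ => ?_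
  have h1 := diff D s hL hJ hJ' hJJ ((jTm D s h k i).mul hχ) i
  rw [h1]
  congr 1
  ring

/-- the horizontal derivatives -/
def ah (a : Fin 2 → C(P, ℝ)) (i : Fin 2) : C(P, ℝ) :=
  - (∑ j, D.dU i j (.V j)) - ∑ j, D.U i j * a j

theorem weak_H (hJ : UW D J) {a : Fin 2 → C(P, ℝ)} (ha : ∀ (χ : C(P, ℝ)) (d : Idx → C(P, ℝ)),
    Jet c χ d → ∀ k, J (d (.V k)) = - intL m (a k * χ)) {χ : C(P, ℝ)} {d : Idx → C(P, ℝ)}
    (hχ : Jet c χ d) (i : Fin 2) : J (d (.H i)) = - intL m (ah D a i * χ) := by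
  have h1 := hJ _ _ hχ i
  have h20 := ha _ _ ((D.jU i 0).mul hχ) 0
  have h21 := ha _ _ ((D.jU i 1).mul hχ) 1
  have e : d (.H i) = (d (.H i) + ∑ j, D.U i j * d (.V j) + pp D i * χ) -
      (D.U i 0 * d (.V 0) + χ * D.dU i 0 (.V 0)) - (D.U i 1 * d (.V 1) + χ * D.dU i 1 (.V 1)) := by
    simp only [pp, Fin.sum_univ_two]
    ring
  rw [e, map_sub, map_sub, h1, h20, h21]
  have e2 : ah D a i * χ = - (pp D i * χ) - a 0 * (D.U i 0 * χ) - a 1 * (D.U i 1 * χ) := by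
    simp only [ah, pp, Fin.sum_univ_two]
    ring
  rw [e2, map_sub, map_sub, map_neg]
  ring

/-- the weak derivatives -/
def aa (h : ∀ x, 0 < dt D s x) (dL : Idx → C(P, ℝ)) (r : ℝ) : Idx → C(P, ℝ)
  | .X => D.U 0 0 + D.U 1 1 - algebraMap ℝ C(P, ℝ) r
  | .H i => ah D (av D s h dL) i
  | .V i => av D s h dL i
  | .R => 0

/-- **The weak derivatives of `ψ`.** -/
def psiData (h : ∀ x, 0 < dt D s x) {L : C(P, ℝ)} {dL : Idx → C(P, ℝ)} (hL : Jet c L dL)
    (hJ : UW D J) (hJ' : UW D J') (hJJ : ∀ f, J' f = - J (s.o f) - intL m (L * f)) {r : ℝ}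
    (hX : ∀ f : c.S, J (c.Y .X f : c.S) =
      - intL m ((D.U 0 0 + D.U 1 1 - algebraMap ℝ C(P, ℝ) r) * f))
    (hR : ∀ f : c.S, J (c.Y .R f : c.S) = 0) : PsiData D J r where
  a := aa D s h dL r
  weak := by
    intro k f
    have hV : ∀ (χ : C(P, ℝ)) (d : Idx → C(P, ℝ)), Jet c χ d → ∀ k,
        J (d (.V k)) = - intL m (av D s h dL k * χ) :=
      fun χ d hχ k => weak_V D s h hL hJ hJ' hJJ hχ k
    match k with
    | .X => exact hX f
    | .H i => exact weak_H D hJ hV (Jet.of_mem f) i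
    | .V i => exact hV _ _ (Jet.of_mem f) i
    | .R => rw [hR, aa, zero_mul, map_zero, neg_zero]
  aX := rfl
  aR := rfl
  aH := fun _ => rfl

end Vale.Agent.P207.Q.H222
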