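import Vale.Agent.P207.Q.H222.WD3b
import Vale.Agent.P207.Q.H471.LinS
import Vale.Agent.P207.Q.WD5
import Vale.Agent.P207.Q.WD6

/-!
# P207: all weak derivatives of the transfer function (block R7)
-/

open MeasureTheory Filter Topology

set_option linter.unusedSectionVars false

noncomputable section

namespace Vale.Agent.P207.Q.WD

open Vale.Agent.P207.Q.H413
open Vale.Agent.P207.Q.H892 (Curv)
open Vale.Agent.P207.Q.H183 (FlowS)

variable {P : Type*} [TopologicalSpace P] [CompactSpace P] [MeasurableSpace P] [BorelSpace P]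
  {m : Measure P}

/-- forget the flow -/
def Flip.flip0 [IsFiniteMeasure m] {c : Cal (intL m)} {F : FlowS c} (σ : Flip F) : H222.Flip c where
  σ := σ.σ
  inv := σ.inv
  mp := σ.mp
  pull := σ.pb
  pull_apply := fun f => σ.pb_eq f
  Y_pull := fun k f => by
    rw [σ.Y_pb, σ.pb_eq]
    cases k <;> rfl

variable [IsProbabilityMeasure m] {c : Cal (intL m)} {C : Curv c} {F : FlowS c}
  {D : UData c C} [FirstCountableTopology P] [m.IsOpenPosMeasure]

theorem Sol.uw {lam : ℝ} (H : Hyp D F lam) (hφ : MFlow m F.φ)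
    (wpx : ∀ F F' : C(P, ℝ), WX c F F' → intL m (F * F') = 0)
    {h : ℝ} {ψ : P → ℝ} (hψ : Sol D F h ψ) : H222.UW D (psiL m ψ hψ.int) :=
  fun _ _ hχ i => W1 D H hφ wpx hψ hχ i

/-- the vertical derivatives of `ψ` -/
theorem Sol.vertical {lam : ℝ} (H : Hyp D F lam) (hφ : MFlow m F.φ)
    (wpx : ∀ F F' : C(P, ℝ), WX c F F' → intL m (F * F') = 0) (σ : Flip F)
    {h : ℝ} {ψ : P → ℝ} (hψ : Sol D F h ψ) {L : C(P, ℝ)} {dL : Idx → C(P, ℝ)}
    (hL : Jet c L dL) (hψ' : Sol D F h (fun x => - ψ (σ.σ x) - L x)) :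
    ∃ aV : Fin 2 → C(P, ℝ), ∀ i (f : c.S),
      ∫ x, ψ x * ((c.Y (.V i) f : c.S) : C(P, ℝ)) x ∂m = - intL m (aV i * f) := by
  have hd : ∀ x, 0 < H222.dt D σ.flip0 x := H222.dt_pos D σ.flip0 H.lam_pos H.pos
  refine ⟨H222.av D σ.flip0 hd dL, fun i f => ?_⟩
  refine H222.weak_V D σ.flip0 hd hL (J := psiL m ψ hψ.int)
    (J' := psiL m (fun x => - ψ (σ.σ x) - L x) hψ'.int) (hψ.uw H hφ wpx) (hψ'.uw H hφ wpx) ?_
    (Jet.of_mem f) i
  intro g
  rw [psiL_apply, psiL_apply, intL_apply]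
  have h1 : Integrable (fun x => ψ (σ.σ x)) m :=
    σ.mp.integrable_comp_of_integrable hψ.int
  have h2 := integrable_mul_cont h1 g
  have h3 := integrable_mul_cont (integrable_cont (m := m) L.continuous) g
  have e : ∀ x, (- ψ (σ.σ x) - L x) * g x = - (ψ (σ.σ x) * g x + L x * g x) := fun x => by ring
  simp only [e]
  rw [integral_neg, integral_add h2 h3]
  have h4 := σ.integral_comp (fun x => ψ x * g (σ.σ x))
  simp only [σ.inv] at h4
  rw [h4, neg_add]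
  rfl

/-- **Block R7.** -/
theorem exists_psiData {lam : ℝ} (H : Hyp D F lam) (hφ : MFlow m F.φ)
    (wpx : ∀ F F' : C(P, ℝ), WX c F F' → intL m (F * F') = 0) (σ : Flip F)
    (hK : ∀ i j x, C.K i j (σ.σ x) = C.K i j x) {h : ℝ} {ψ : P → ℝ} (hψ : Sol D F h ψ)
    (hLa : ∀ L : C(P, ℝ), (∀ x, L x = Real.log (σ.SS D 0 0 x * σ.SS D 1 1 x -
      σ.SS D 0 1 x * σ.SS D 0 1 x)) → ∀ ε > 0, ∃ f : c.S, c.Y .R f = 0 ∧
        ∫ x, |L x - (f : C(P, ℝ)) x| ∂m ≤ ε) :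
    Nonempty (PsiData D (psiL m ψ hψ.int) h) := by
  obtain ⟨T, L, symT, hT, -, -, hLx, hL⟩ := H471.exists_inverse (σ.jSS D) (σ.symSS D)
    (σ.symdSS D) (σ.det_pos D H.lam_pos H.pos)
  have hψ' := Sol.flip σ D hψ hK symT hT hL (hLa L hLx)
  obtain ⟨aV, hV⟩ := hψ.vertical H hφ wpx σ hL hψ'
  exact ⟨Sol.psiData H hφ wpx hψ aV hV⟩

end Vale.Agent.P207.Q.WD
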